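import Vale.Agent.P037.Far

namespace Vale.Agent.Results.P037.Counter

open Vale.Agent.P037

theorem result : ¬ ∃ c C : ℝ, 0 < c ∧ 0 < C ∧
    ∀ n : ℕ, 1 ≤ n → ∀ ε : ℝ, 0 < ε → ε < 1 → ∀ A : Fin n → Fin n → Bool,
      ε ≤ distFree pat A → c * ε ^ C * (n : ℝ) ^ (2 * 5) ≤ (numCopies pat A : ℝ) := by
  rintro ⟨c, C, hc, hC, h⟩
  obtain ⟨n, ε, A, h1, h2, h3, h4, h5⟩ := counter c C hc hC
  exact absurd (h n h1 ε h2 h3 A h4) (not_le.2 h5)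

end Vale.Agent.Results.P037.Counter
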